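import Vale.Agent.P218.CY.Defs

/-! Row P: integration by parts on the round cylinder, by the invariance of the area. -/

open MeasureTheory Set Filter Topology
open scoped ENNReal NNReal ContDiff

namespace Vale.Agent.P218.CY.H266

open Vale.Agent.P218.H63 Vale.Agent.P218.H588

/-- the derivative along a measure preserving flow has integral zero -/
lemma flow_zero {μ : Measure E3} [SigmaFinite μ] (g : ℝ → E3 → E3)
    (hg : Continuous fun p : E3 × ℝ => g p.2 p.1) (hm : ∀ t, μ.map (g t) = μ)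
    (F G : E3 → ℝ) (hF : Integrable F μ) (hG : Integrable G μ) (hFc : Continuous F)
    (hGc : Continuous G)
    (hd : ∀ x t, HasDerivAt (fun s => F (g s x)) (G (g t x)) t) :
    ∫ x, G x ∂μ = 0 := by
  have hgc : ∀ t, Continuous (g t) := fun t => by
    have := hg.comp (Continuous.prodMk continuous_id (continuous_const (y := t)))
    exact this
  have hmp : ∀ t, MeasurePreserving (g t) μ μ := fun t => ⟨(hgc t).measurable, hm t⟩
  have hcomp : ∀ (H : E3 → ℝ), Continuous H → ∀ t, ∫ x, H (g t x) ∂μ = ∫ x, H x ∂μ := by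
    intro H hH t
    conv_rhs => rw [← hm t]
    rw [integral_map (hgc t).aemeasurable hH.aestronglyMeasurable]
  have hci : ∀ (H : E3 → ℝ), Integrable H μ → ∀ t, Integrable (fun x => H (g t x)) μ := by
    intro H hH t
    exact (hmp t).integrable_comp_of_integrable hH
  have hGg : Continuous fun p : E3 × ℝ => G (g p.2 p.1) := hGc.comp hg
  -- the fundamental theorem
  have h1 : ∀ x, F (g 1 x) - F (g 0 x) = ∫ s in (0:ℝ)..1, G (g s x) := by
    intro x
    symm
    refine intervalIntegral.integral_eq_sub_of_hasDerivAt (fun s _ => hd x s) ?_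
    have : Continuous fun s : ℝ => G (g s x) :=
      hGg.comp (Continuous.prodMk (continuous_const (y := x)) continuous_id)
    exact this.intervalIntegrable _ _
  have h2 : ∫ x, (F (g 1 x) - F (g 0 x)) ∂μ = 0 := by
    rw [integral_sub (hci F hF 1) (hci F hF 0), hcomp F hFc, hcomp F hFc, sub_self]
  have hint : Integrable (Function.uncurry fun (x : E3) (s : ℝ) => G (g s x))
      (μ.prod (volume.restrict (Ioc (0:ℝ) 1))) := by
    refine (integrable_prod_iff' (f := Function.uncurry fun (x : E3) (s : ℝ) => G (g s x))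
      hGg.aestronglyMeasurable).2 ⟨Eventually.of_forall fun s => hci G hG s, ?_⟩
    have e : (fun s : ℝ => ∫ x, ‖Function.uncurry (fun (x : E3) (s : ℝ) => G (g s x)) (x, s)‖ ∂μ)
        = fun _ => ∫ x, ‖G x‖ ∂μ := by
      funext s
      exact hcomp (fun x => ‖G x‖) hGc.norm s
    rw [e]
    exact integrable_const _
  have h3 : ∫ x, (∫ s in (0:ℝ)..1, G (g s x)) ∂μ = ∫ x, G x ∂μ := by
    simp_rw [intervalIntegral.integral_of_le zero_le_one]
    rw [integral_integral_swap hint]
    simp_rw [hcomp G hGc]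
    simp
  calc ∫ x, G x ∂μ = ∫ x, (∫ s in (0:ℝ)..1, G (g s x)) ∂μ := h3.symm
    _ = ∫ x, (F (g 1 x) - F (g 0 x)) ∂μ :=
        integral_congr_ae (Eventually.of_forall fun x => (h1 x).symm)
    _ = 0 := h2

/-- the Gaussian weight -/
noncomputable def rh (x : E3) : ℝ := Real.exp (-‖x‖ ^ 2 / 4)

lemma continuous_rh : Continuous rh := by unfold rh; fun_prop

/-- the area of the cylinder -/
noncomputable def nu : Measure E3 := (μH[2] : Measure E3).restrict cyl

lemma measurable_dens : Measurable fun x : E3 => ENNReal.ofReal (Real.exp (-‖x‖ ^ 2 / 4)) := by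
  fun_prop

lemma integral_eq (f : E3 → ℝ) :
    ∫ x, f x ∂(gaussArea 2 cyl) = ∫ x, f x * rh x ∂nu := by
  have h0 : gaussArea 2 cyl
      = nu.withDensity fun x => ENNReal.ofReal (Real.exp (-‖x‖ ^ 2 / 4)) := by
    unfold gaussArea nu; norm_num
  rw [h0, integral_withDensity_eq_integral_toReal_smul measurable_dens
    (Eventually.of_forall fun x => ENNReal.ofReal_lt_top)]
  refine integral_congr_ae (Eventually.of_forall fun x => ?_)
  simp only [smul_eq_mul]
  rw [ENNReal.toReal_ofReal (Real.exp_pos _).le, mul_comm]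
  rfl

lemma integrable_of {f : E3 → ℝ} (h : Integrable f (gaussArea 2 cyl)) :
    Integrable (fun x => f x * rh x) nu := by
  have h0 : gaussArea 2 cyl
      = nu.withDensity fun x => ENNReal.ofReal (Real.exp (-‖x‖ ^ 2 / 4)) := by
    unfold gaussArea nu; norm_num
  rw [h0, integrable_withDensity_iff measurable_dens
    (Eventually.of_forall fun x => ENNReal.ofReal_lt_top)] at h
  refine h.congr (Eventually.of_forall fun x => ?_)
  simp only
  rw [ENNReal.toReal_ofReal (Real.exp_pos _).le]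
  rfl

lemma sigmaFinite_nu (hM : RowM) : SigmaFinite nu := by
  have h0 : gaussArea 2 cyl
      = nu.withDensity fun x => ENNReal.ofReal (Real.exp (-‖x‖ ^ 2 / 4)) := by
    unfold gaussArea nu; norm_num
  have hfin : IsFiniteMeasure (gaussArea 2 cyl) := by
    have h := hM.1 0
    simp only [pow_zero] at h
    exact (integrable_const_iff_isFiniteMeasure one_ne_zero).1 h
  have h1 := withDensity_inv_same (μ := nu) measurable_dens
    (Eventually.of_forall fun x => by simp [Real.exp_pos])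
    (Eventually.of_forall fun x => ENNReal.ofReal_ne_top)
  rw [← h0] at h1
  rw [← h1]
  exact SigmaFinite.withDensity_of_ne_top' fun x =>
    ENNReal.inv_ne_top.2 (by simp [Real.exp_pos])

/-- the derivative of the weight -/
lemma hasFDerivAt_rh (x : E3) :
    HasFDerivAt rh ((-rh x / 2) • (innerSL ℝ x)) x := by
  have h1 : HasFDerivAt (fun y : E3 => ‖y‖ ^ 2) (2 • innerSL ℝ x) x :=
    (hasStrictFDerivAt_norm_sq x).hasFDerivAt
  have h2 : HasFDerivAt (fun y : E3 => -‖y‖ ^ 2 / 4) ((-1 / 4 : ℝ) • (2 • innerSL ℝ x)) x := by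
    have := h1.const_mul (-1 / 4 : ℝ)
    refine this.congr_of_eventuallyEq (Eventually.of_forall fun y => ?_)
    simp only; ring
  have h3 := h2.exp
  refine h3.congr_fderiv ?_
  ext y
  simp only [smul_apply, smul_eq_mul, nsmul_eq_mul, Nat.cast_ofNat, rh]
  ring

/-- the coordinates are bounded by the norm -/
lemma abs_coord_le (x : E3) (i : Fin 3) : |x i| ≤ ‖x‖ := by
  have := EuclideanSpace.norm_eq x
  have h2 : ‖x‖ ^ 2 = x 0 ^ 2 + x 1 ^ 2 + x 2 ^ 2 := by
    rw [EuclideanSpace.norm_sq_eq, Fin.sum_univ_three]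
    simp [Real.norm_eq_abs, sq_abs]
  rw [← sq_le_sq₀ (abs_nonneg _) (norm_nonneg _), sq_abs, h2]
  fin_cases i <;> simp <;> nlinarith [sq_nonneg (x 0), sq_nonneg (x 1), sq_nonneg (x 2)]

lemma norm_ee (i : Fin 3) : ‖ee i‖ = 1 := by
  simp [ee]

lemma pg_nonneg {f : E3 → ℝ} {C : ℝ} {p : ℕ}
    (h : ∀ x, |f x| ≤ C * (1 + ‖x‖) ^ p ∧ ‖fderiv ℝ f x‖ ≤ C * (1 + ‖x‖) ^ p) : 0 ≤ C := by
  have := (abs_nonneg _).trans (h 0).1
  simpa using this

lemma abs_pd_le {f : E3 → ℝ} {C : ℝ} {p : ℕ}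
    (h : ∀ x, |f x| ≤ C * (1 + ‖x‖) ^ p ∧ ‖fderiv ℝ f x‖ ≤ C * (1 + ‖x‖) ^ p) (i : Fin 3)
    (x : E3) : |pd i f x| ≤ C * (1 + ‖x‖) ^ p := by
  have h1 := (fderiv ℝ f x).le_opNorm (ee i)
  rw [norm_ee, mul_one, Real.norm_eq_abs] at h1
  exact h1.trans (h x).2

/-- polynomial growth gives integrability -/
lemma integrable_of_pg (hM : RowM) {f : E3 → ℝ} (hc : Continuous f) (C : ℝ) (p : ℕ)
    (h : ∀ x, |f x| ≤ C * (1 + ‖x‖) ^ p) : Integrable f (gaussArea 2 cyl) := by
  refine ((hM.1 p).const_mul C).mono' hc.aestronglyMeasurable (Eventually.of_forall fun x => ?_)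
  rw [Real.norm_eq_abs]
  exact h x

lemma continuous_pd {f : E3 → ℝ} (hf : ContDiff ℝ 1 f) (i : Fin 3) : Continuous (pd i f) :=
  (hf.continuous_fderiv one_ne_zero).clm_apply continuous_const

lemma continuous_coord (i : Fin 3) : Continuous fun x : E3 => x i := by fun_prop

/-- the derivative of `f` times the weight -/
lemma hasFDerivAt_mul {f : E3 → ℝ} (hf : ContDiff ℝ 1 f) (x : E3) :
    HasFDerivAt (fun y => f y * rh y)
      (f x • ((-rh x / 2) • (innerSL ℝ x)) + rh x • fderiv ℝ f x) x :=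
  ((hf.differentiable one_ne_zero x).hasFDerivAt).mul (hasFDerivAt_rh x)

lemma inner_ee (x : E3) (i : Fin 3) : inner ℝ x (ee i) = x i := by
  simp [ee, EuclideanSpace.inner_single_right]

@[simp] lemma ee_same (i : Fin 3) : (ee i) i = 1 := by simp [ee]

lemma ee_ne {i j : Fin 3} (h : j ≠ i) : (ee i) j = 0 := by simp [ee, h]

/-- invariance of the area under a map -/
lemma map_eq (hI : RowI) (g : E3 ≃ᵢ E3) (hg : ∀ x, g x ∈ cyl ↔ x ∈ cyl) : nu.map g = nu :=
  hI g hg

/-- the vertical part -/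
lemma row_z (hI : RowI) (hM : RowM) {f : E3 → ℝ} (hf : PG1 f) :
    ∫ x, (pd 2 f x - x 2 / 2 * f x) ∂(gaussArea 2 cyl) = 0 := by
  obtain ⟨hf1, C, p, hC⟩ := hf
  have hC0 := pg_nonneg hC
  have := sigmaFinite_nu hM
  rw [integral_eq]
  have hfc : Continuous f := hf1.continuous
  have hGc : Continuous fun x : E3 => pd 2 f x - x 2 / 2 * f x := by
    have := continuous_pd hf1 2
    have h2 := continuous_coord 2
    fun_prop
  refine flow_zero (μ := nu) (fun s x => x + s • ee 2) (by fun_prop) ?_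
    (fun x => f x * rh x) (fun x => (pd 2 f x - x 2 / 2 * f x) * rh x) ?_ ?_ ?_ ?_ ?_
  · intro t
    refine map_eq hI (IsometryEquiv.addRight (t • ee 2)) fun x => ?_
    simp [cyl, IsometryEquiv.addRight, ee]
  · exact integrable_of (integrable_of_pg hM hfc C p fun x => (hC x).1)
  · refine integrable_of (integrable_of_pg hM hGc (2 * C) (p + 1) fun x => ?_)
    have h1 := abs_pd_le hC 2 x
    have h2 := (hC x).1
    have h3 := abs_coord_le x 2
    have h4 : 0 ≤ C * (1 + ‖x‖) ^ p := by positivity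
    calc |pd 2 f x - x 2 / 2 * f x| ≤ |pd 2 f x| + |x 2 / 2 * f x| := abs_sub _ _
      _ ≤ C * (1 + ‖x‖) ^ p + ‖x‖ * (C * (1 + ‖x‖) ^ p) := by
          rw [abs_mul, abs_div, abs_two]
          have h5 : |x 2| / 2 ≤ ‖x‖ := by linarith [abs_nonneg (x 2)]
          exact add_le_add h1 (mul_le_mul h5 h2 (abs_nonneg _) (norm_nonneg _))
      _ = C * (1 + ‖x‖) ^ (p + 1) := by ring
      _ ≤ 2 * C * (1 + ‖x‖) ^ (p + 1) := by
          have : 0 ≤ C * (1 + ‖x‖) ^ (p + 1) := by positivity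
          linarith
  · exact hfc.mul continuous_rh
  · exact hGc.mul continuous_rh
  · intro x t
    have h1 : HasDerivAt (fun s : ℝ => x + s • ee 2) (ee 2) t := by
      have := ((hasDerivAt_id t).smul_const (ee 2)).const_add x
      simpa using this
    have h2 := (hasFDerivAt_mul hf1 (x + t • ee 2)).comp_hasDerivAt t h1
    refine h2.congr_deriv ?_
    simp only [add_apply, smul_apply, smul_eq_mul, innerSL_apply_apply, inner_ee, pd]
    ring

/-- the rotation about the axis -/
noncomputable def Rt (t : ℝ) (x : E3) : E3 :=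
  Real.cos t • (x 0 • ee 0 + x 1 • ee 1) + Real.sin t • (x 0 • ee 1 - x 1 • ee 0) + x 2 • ee 2

lemma Rt0 (t : ℝ) (x : E3) : Rt t x 0 = Real.cos t * x 0 - Real.sin t * x 1 := by
  simp [Rt, ee]; ring

lemma Rt1 (t : ℝ) (x : E3) : Rt t x 1 = Real.sin t * x 0 + Real.cos t * x 1 := by
  simp [Rt, ee]; ring

lemma Rt2 (t : ℝ) (x : E3) : Rt t x 2 = x 2 := by
  simp [Rt, ee]

lemma nsq (x : E3) : ‖x‖ ^ 2 = x 0 ^ 2 + x 1 ^ 2 + x 2 ^ 2 := by
  rw [EuclideanSpace.norm_sq_eq, Fin.sum_univ_three]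
  simp [Real.norm_eq_abs, sq_abs]

lemma Rt_Rt (t : ℝ) (x : E3) : Rt t (Rt (-t) x) = x := by
  ext i
  fin_cases i
  · simp only [Fin.zero_eta, Fin.isValue]
    rw [Rt0, Rt0, Rt1, Real.cos_neg, Real.sin_neg]
    linear_combination (x 0) * Real.cos_sq_add_sin_sq t
  · simp only [Fin.mk_one, Fin.isValue]
    rw [Rt1, Rt0, Rt1, Real.cos_neg, Real.sin_neg]
    linear_combination (x 1) * Real.cos_sq_add_sin_sq t
  · simp only [Fin.reduceFinMk, Fin.isValue]
    rw [Rt2, Rt2]

lemma isometry_Rt (t : ℝ) : Isometry (Rt t) := by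
  refine Isometry.of_dist_eq fun x y => ?_
  rw [dist_eq_norm, dist_eq_norm, ← sq_eq_sq₀ (norm_nonneg _) (norm_nonneg _), nsq, nsq]
  simp only [PiLp.sub_apply, Rt0, Rt1, Rt2]
  linear_combination ((x 0 - y 0) ^ 2 + (x 1 - y 1) ^ 2) * Real.cos_sq_add_sin_sq t

/-- the rotation as an isometric equivalence -/
noncomputable def RtE (t : ℝ) : E3 ≃ᵢ E3 :=
  IsometryEquiv.mk' (Rt t) (Rt (-t)) (Rt_Rt t) (isometry_Rt t)

lemma continuous_Rt : Continuous fun p : E3 × ℝ => Rt p.2 p.1 := by
  unfold Rt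
  fun_prop

/-- the rotation part -/
lemma row_r (hI : RowI) (hM : RowM) {f : E3 → ℝ} (hf : PG1 f) :
    ∫ x, rot f x ∂(gaussArea 2 cyl) = 0 := by
  obtain ⟨hf1, C, p, hC⟩ := hf
  have hC0 := pg_nonneg hC
  have := sigmaFinite_nu hM
  rw [integral_eq]
  have hfc : Continuous f := hf1.continuous
  have hGc : Continuous (rot f) := by
    have h0 := continuous_pd hf1 0
    have h1 := continuous_pd hf1 1
    have h2 := continuous_coord 0
    have h3 := continuous_coord 1
    unfold rot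
    fun_prop
  refine flow_zero (μ := nu) Rt continuous_Rt ?_
    (fun x => f x * rh x) (fun x => rot f x * rh x) ?_ ?_ ?_ ?_ ?_
  · intro t
    refine map_eq hI (RtE t) fun x => ?_
    have e : (RtE t) x = Rt t x := rfl
    rw [e]
    simp only [cyl, Set.mem_ofPred_eq, Rt0, Rt1]
    have : (Real.cos t * x 0 - Real.sin t * x 1) ^ 2 + (Real.sin t * x 0 + Real.cos t * x 1) ^ 2
        = x 0 ^ 2 + x 1 ^ 2 := by
      linear_combination (x 0 ^ 2 + x 1 ^ 2) * Real.cos_sq_add_sin_sq t
    rw [this]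
  · exact integrable_of (integrable_of_pg hM hfc C p fun x => (hC x).1)
  · refine integrable_of (integrable_of_pg hM hGc (2 * C) (p + 1) fun x => ?_)
    have h1 := abs_pd_le hC 1 x
    have h0 := abs_pd_le hC 0 x
    have h4 : 0 ≤ C * (1 + ‖x‖) ^ p := by positivity
    calc |rot f x| ≤ |x 0 * pd 1 f x| + |x 1 * pd 0 f x| := abs_sub _ _
      _ ≤ ‖x‖ * (C * (1 + ‖x‖) ^ p) + ‖x‖ * (C * (1 + ‖x‖) ^ p) := by
          rw [abs_mul, abs_mul]
          exact add_le_add
            (mul_le_mul (abs_coord_le x 0) h1 (abs_nonneg _) (norm_nonneg _))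
            (mul_le_mul (abs_coord_le x 1) h0 (abs_nonneg _) (norm_nonneg _))
      _ ≤ 2 * C * (1 + ‖x‖) ^ (p + 1) := by
          rw [pow_succ]
          nlinarith [norm_nonneg x]
  · exact hfc.mul continuous_rh
  · exact hGc.mul continuous_rh
  · intro x t
    have h1 : HasDerivAt (fun s : ℝ => Rt s x) (Rt t x 0 • ee 1 - Rt t x 1 • ee 0) t := by
      have hc := (Real.hasDerivAt_cos t).smul_const (x 0 • ee 0 + x 1 • ee 1)
      have hs := (Real.hasDerivAt_sin t).smul_const (x 0 • ee 1 - x 1 • ee 0)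
      have := (hc.add hs).add_const (x 2 • ee 2)
      refine this.congr_deriv ?_
      rw [Rt0, Rt1]
      module
    have h2 := (hasFDerivAt_mul hf1 (Rt t x)).comp_hasDerivAt t h1
    refine h2.congr_deriv ?_
    simp only [add_apply, smul_apply, smul_eq_mul, innerSL_apply_apply,
      inner_ee, map_sub, map_smul, rot, pd]
    ring

/-- **row P** -/
theorem rowP (hI : RowI) (hM : RowM) : RowP := fun _ hf => ⟨row_z hI hM hf, row_r hI hM hf⟩

end Vale.Agent.P218.CY.H266
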